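import Crest.Agent.R106.U.Calc

/-! Row 106, uniqueness: the Vlasov part at a fixed time. -/

set_option autoImplicit false

noncomputable section

namespace Crest.Agent.R106.U

open MeasureTheory Set Crest.AnalysisR.VecCalc3 Crest.AnalysisR.PDE.RVM

theorem norm_relVel_le (v : R3) : ‖relVel v‖ ≤ 1 := by
  have h0 : 0 < Real.sqrt (1 + ‖v‖ ^ 2) := Real.sqrt_pos.2 (by positivity)
  have h1 : ‖v‖ ≤ Real.sqrt (1 + ‖v‖ ^ 2) := Real.le_sqrt_of_sq_le (by linarith)
  rw [relVel, norm_smul, Real.norm_eq_abs, abs_of_pos (inv_pos.2 h0), inv_mul_le_iff₀ h0, mul_one]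
  exact h1

theorem contDiff_relVel : ContDiff ℝ 1 relVel := by
  have h1 : ContDiff ℝ 1 fun v : R3 => 1 + ‖v‖ ^ 2 := contDiff_const.add (contDiff_norm_sq ℝ)
  have h2 : ContDiff ℝ 1 fun v : R3 => Real.sqrt (1 + ‖v‖ ^ 2) :=
    h1.sqrt fun v => by positivity
  have h3 : ContDiff ℝ 1 fun v : R3 => (Real.sqrt (1 + ‖v‖ ^ 2))⁻¹ :=
    h2.inv fun v => (Real.sqrt_pos.2 (by positivity)).ne'
  exact h3.smul contDiff_id

theorem norm_cross3_le (a b : R3) : ‖cross3 a b‖ ≤ ‖a‖ * ‖b‖ := by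
  have h : ‖cross3 a b‖ ^ 2 ≤ (‖a‖ * ‖b‖) ^ 2 := by
    rw [mul_pow, EuclideanSpace.real_norm_sq_eq, EuclideanSpace.real_norm_sq_eq,
      EuclideanSpace.real_norm_sq_eq]
    simp only [cross3, Fin.sum_univ_three, Matrix.cons_val_zero, Matrix.cons_val_one,
      Matrix.cons_val_two, Matrix.head_cons, Matrix.tail_cons, Matrix.cons_val_fin_one]
    nlinarith [sq_nonneg (a 0 * b 0 + a 1 * b 1 + a 2 * b 2)]
  exact abs_le_of_sq_le_sq' h (by positivity) |>.2

theorem vlaA_phi (v : R3) : ∃ (c : ℝ) (L : R3 →L[ℝ] ℝ),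
    HasFDerivAt (fun w : R3 => (Real.sqrt (1 + ‖w‖ ^ 2))⁻¹) L v ∧
      ∀ i : Fin 3, L (EuclideanSpace.single i 1) = c * v i := by
  have h0 : (0 : ℝ) < 1 + ‖v‖ ^ 2 := by positivity
  have h1 : HasFDerivAt (fun w : R3 => 1 + ‖w‖ ^ 2) (2 • innerSL ℝ v) v :=
    (hasStrictFDerivAt_norm_sq v).hasFDerivAt.const_add 1
  have h2 : DifferentiableAt ℝ (fun s : ℝ => (Real.sqrt s)⁻¹) (1 + ‖v‖ ^ 2) :=
    (Real.hasDerivAt_sqrt h0.ne').differentiableAt.inv (Real.sqrt_pos.2 h0).ne'
  have h3 := HasDerivAt.comp_hasFDerivAt (h₂ := fun s : ℝ => (Real.sqrt s)⁻¹)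
    (f := fun w : R3 => 1 + ‖w‖ ^ 2) v h2.hasDerivAt h1
  refine ⟨2 * deriv (fun s : ℝ => (Real.sqrt s)⁻¹) (1 + ‖v‖ ^ 2), _, h3, fun i => ?_⟩
  simp [EuclideanSpace.inner_single_right]
  ring

/-- `div_v (u(v) × B) = 0` (the Jacobian of `relVel` is symmetric) -/
theorem div_cross_relVel (B v : R3) : ∑ i : Fin 3, pderiv (fun w => cross3 (relVel w) B i) i v = 0 := by
  obtain ⟨c, L, hL, hc⟩ := vlaA_phi v
  have hp : ∀ j : Fin 3, HasFDerivAt (fun w : R3 => w j) (EuclideanSpace.proj j : R3 →L[ℝ] ℝ) v :=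
    fun j => (EuclideanSpace.proj j : R3 →L[ℝ] ℝ).hasFDerivAt
  have key : ∀ (i j k : Fin 3), i ≠ j → i ≠ k →
      pderiv (fun w : R3 => (Real.sqrt (1 + ‖w‖ ^ 2))⁻¹ * (w j * B k - w k * B j)) i v =
        c * v i * (v j * B k - v k * B j) := by
    intro i j k hj hk
    have h := hL.mul (((hp j).mul_const (B k)).sub ((hp k).mul_const (B j)))
    have h' : HasFDerivAt (fun w : R3 => (Real.sqrt (1 + ‖w‖ ^ 2))⁻¹ * (w j * B k - w k * B j)) _ v := h
    rw [pderiv, h'.fderiv]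
    simp [hc, hj.symm, hk.symm]
    ring
  have e0 : (fun w : R3 => cross3 (relVel w) B 0) =
      fun w : R3 => (Real.sqrt (1 + ‖w‖ ^ 2))⁻¹ * (w 1 * B 2 - w 2 * B 1) := by
    funext w; simp [cross3, relVel]; ring
  have e1 : (fun w : R3 => cross3 (relVel w) B 1) =
      fun w : R3 => (Real.sqrt (1 + ‖w‖ ^ 2))⁻¹ * (w 2 * B 0 - w 0 * B 2) := by
    funext w; simp [cross3, relVel]; ring
  have e2 : (fun w : R3 => cross3 (relVel w) B 2) =
      fun w : R3 => (Real.sqrt (1 + ‖w‖ ^ 2))⁻¹ * (w 0 * B 1 - w 1 * B 0) := by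
    funext w; simp [cross3, relVel]; ring
  rw [Fin.sum_univ_three, e0, e1, e2, key 0 1 2 (by decide) (by decide),
    key 1 2 0 (by decide) (by decide), key 2 0 1 (by decide) (by decide)]
  ring

/-- the transport operator -/
def tr (E B : R3 → R3) (g : R3 → R3 → ℝ) (x v : R3) : ℝ :=
  ∑ i : Fin 3, relVel v i * pderiv (fun y => g y v) i x +
    ∑ i : Fin 3, (E x i + cross3 (relVel v) (B x) i) * pderiv (fun w => g x w) i v

theorem vlab_slice1 {H : R3 × R3 → ℝ} (hH : ContDiff ℝ 1 H) (x v e : R3) :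
    fderiv ℝ H (x, v) (e, 0) = fderiv ℝ (fun y => H (y, v)) x e := by
  have h1 : HasFDerivAt H (fderiv ℝ H (x, v)) (x, v) := (hH.differentiable one_ne_zero _).hasFDerivAt
  have h2 := h1.comp x (hasFDerivAt_prodMk_left (𝕜 := ℝ) x v)
  rw [show (fun y => H (y, v)) = H ∘ fun y => (y, v) from rfl, h2.fderiv]
  rfl

theorem vlab_slice2 {H : R3 × R3 → ℝ} (hH : ContDiff ℝ 1 H) (x v e : R3) :
    fderiv ℝ H (x, v) (0, e) = fderiv ℝ (fun w => H (x, w)) v e := by
  have h1 : HasFDerivAt H (fderiv ℝ H (x, v)) (x, v) := (hH.differentiable one_ne_zero _).hasFDerivAt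
  have h2 := h1.comp v (hasFDerivAt_prodMk_right (𝕜 := ℝ) x v)
  rw [show (fun w => H (x, w)) = H ∘ fun w => (x, w) from rfl, h2.fderiv]
  rfl

theorem vlab_coord {X : Type*} [NormedAddCommGroup X] [NormedSpace ℝ X] {F : X → R3} (hF : ContDiff ℝ 1 F) (i : Fin 3) :
    ContDiff ℝ 1 fun p => F p i := contDiff_euclidean.1 hF i

theorem vlab_cross {X : Type*} [NormedAddCommGroup X] [NormedSpace ℝ X] {F G : X → R3} (hF : ContDiff ℝ 1 F)
    (hG : ContDiff ℝ 1 G) (i : Fin 3) : ContDiff ℝ 1 fun p => cross3 (F p) (G p) i := by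
  fin_cases i
  · exact ((vlab_coord hF 1).mul (vlab_coord hG 2)).sub ((vlab_coord hF 2).mul (vlab_coord hG 1))
  · exact ((vlab_coord hF 2).mul (vlab_coord hG 0)).sub ((vlab_coord hF 0).mul (vlab_coord hG 2))
  · exact ((vlab_coord hF 0).mul (vlab_coord hG 1)).sub ((vlab_coord hF 1).mul (vlab_coord hG 0))

theorem vlab_mul_sq {a k : R3 → ℝ} (ha : ContDiff ℝ 1 a) (hk : ContDiff ℝ 1 k) (x e : R3) :
    fderiv ℝ (fun y => a y * (k y * k y)) x e = fderiv ℝ a x e * (k x * k x) + a x * (2 * k x * fderiv ℝ k x e) := by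
  have h1 : HasFDerivAt a (fderiv ℝ a x) x := (ha.differentiable one_ne_zero _).hasFDerivAt
  have h2 : HasFDerivAt k (fderiv ℝ k x) x := (hk.differentiable one_ne_zero _).hasFDerivAt
  rw [(h1.fun_mul (h2.fun_mul h2)).fderiv]
  simp only [add_apply, smul_apply, smul_eq_mul]
  ring

theorem vlab_int {a G : R3 × R3 → ℝ} (ha : ContDiff ℝ 1 a) (hG : ContDiff ℝ 1 G) (hc : HasCompactSupport G) (e : R3 × R3) :
    Integrable (fun p => fderiv ℝ (fun q => a q * (G q * G q)) p e) ∧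
      ∫ p, fderiv ℝ (fun q => a q * (G q * G q)) p e = 0 := by
  have : (volume : Measure (R3 × R3)).IsAddHaarMeasure := by rw [Measure.volume_eq_prod]; infer_instance
  have h1 : ContDiff ℝ 1 fun q => a q * (G q * G q) := ha.mul (hG.mul hG)
  have h2 : HasCompactSupport fun q => a q * (G q * G q) := (hc.mul_left (f := G)).mul_left (f := a)
  refine ⟨Continuous.integrable_of_hasCompactSupport ?_ (h2.fderiv_apply ℝ e), int_fderiv_zero volume h1 h2 e⟩
  exact (h1.continuous_fderiv one_ne_zero).clm_apply continuous_const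

/-- `2 g · tr g` is a divergence: `int_fderiv_zero` on `R3 × R3` for `relVel v i * g²` in the direction `(e_i, 0)` and
`(E x i + cross3 .. i) * g²` in the direction `(0, e_i)`, `div_cross_relVel`. -/
theorem int_tr {E B : R3 → R3} (hE : ContDiff ℝ 1 E) (hB : ContDiff ℝ 1 B) {g : R3 → R3 → ℝ}
    (hg : ContDiff ℝ 1 fun p : R3 × R3 => g p.1 p.2) (hc : HasCompactSupport fun p : R3 × R3 => g p.1 p.2) :
    Integrable (fun p : R3 × R3 => 2 * g p.1 p.2 * tr E B g p.1 p.2) ∧
      ∫ p : R3 × R3, 2 * g p.1 p.2 * tr E B g p.1 p.2 = 0 := by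
  have hu : ContDiff ℝ 1 fun p : R3 × R3 => relVel p.2 := contDiff_relVel.comp contDiff_snd
  have ha : ∀ i : Fin 3, ContDiff ℝ 1 fun p : R3 × R3 => relVel p.2 i := vlab_coord hu
  have hb : ∀ i : Fin 3, ContDiff ℝ 1 fun p : R3 × R3 => E p.1 i + cross3 (relVel p.2) (B p.1) i := fun i =>
    (vlab_coord (hE.comp contDiff_fst) i).add (vlab_cross hu (hB.comp contDiff_fst) i)
  have h1 := fun i : Fin 3 => vlab_int (ha i) hg hc (EuclideanSpace.single i 1, 0)
  have h2 := fun i : Fin 3 => vlab_int (hb i) hg hc (0, EuclideanSpace.single i 1)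
  have key : (fun p : R3 × R3 => 2 * g p.1 p.2 * tr E B g p.1 p.2) = fun p =>
      ∑ i : Fin 3, fderiv ℝ (fun q : R3 × R3 => relVel q.2 i * (g q.1 q.2 * g q.1 q.2)) p (EuclideanSpace.single i 1, 0) +
      ∑ i : Fin 3, fderiv ℝ (fun q : R3 × R3 => (E q.1 i + cross3 (relVel q.2) (B q.1) i) * (g q.1 q.2 * g q.1 q.2)) p
        (0, EuclideanSpace.single i 1) := by
    funext ⟨x, v⟩
    have hx : ContDiff ℝ 1 fun y => g y v := hg.comp (contDiff_prodMk_left v)
    have hv : ContDiff ℝ 1 fun w => g x w := hg.comp (contDiff_prodMk_right x)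
    have e1 : ∀ i : Fin 3, fderiv ℝ (fun q : R3 × R3 => relVel q.2 i * (g q.1 q.2 * g q.1 q.2)) (x, v)
        (EuclideanSpace.single i 1, 0) = relVel v i * (2 * g x v * pderiv (fun y => g y v) i x) := fun i => by
      rw [vlab_slice1 ((ha i).mul (hg.mul hg)), vlab_mul_sq (a := fun _ => relVel v i) contDiff_const hx]
      simp [pderiv]
    have e2 : ∀ i : Fin 3, fderiv ℝ (fun q : R3 × R3 => (E q.1 i + cross3 (relVel q.2) (B q.1) i) * (g q.1 q.2 * g q.1 q.2))
        (x, v) (0, EuclideanSpace.single i 1) = pderiv (fun w => cross3 (relVel w) (B x) i) i v * (g x v * g x v) +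
          (E x i + cross3 (relVel v) (B x) i) * (2 * g x v * pderiv (fun w => g x w) i v) := fun i => by
      rw [vlab_slice2 ((hb i).mul (hg.mul hg)), vlab_mul_sq (a := fun w => E x i + cross3 (relVel w) (B x) i)
        (contDiff_const.add (vlab_cross contDiff_relVel contDiff_const i)) hv, fderiv_const_add]
      rfl
    simp only [e1, e2, Finset.sum_add_distrib, ← Finset.sum_mul, div_cross_relVel, tr, mul_add, Finset.mul_sum, zero_mul,
      zero_add]
    congr 1 <;> exact Finset.sum_congr rfl fun i _ => by ring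
  have i1 := integrable_finsetSum Finset.univ fun i _ => (h1 i).1
  have i2 := integrable_finsetSum Finset.univ fun i _ => (h2 i).1
  rw [key]
  refine ⟨i1.add i2, ?_⟩
  rw [integral_add i1 i2, integral_finsetSum _ fun i _ => (h1 i).1, integral_finsetSum _ fun i _ => (h2 i).1]
  simp only [fun i => (h1 i).2, fun i => (h2 i).2, Finset.sum_const_zero, add_zero]

/-- the source term: `|s| ≤ M (‖e x‖ + ‖b x‖)` where `g ≠ 0`; `2 g s ≤ g² + 2 M² (‖e‖² + ‖b‖²) w(x) 1_{‖v‖ ≤ R}`, Fubini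
(`integral_prod_mul`). -/
theorem src_le (R M : ℝ) : ∃ C : ℝ, 0 ≤ C ∧ ∀ (g s : R3 × R3 → ℝ) (e b : R3 → R3) (w : R3 → ℝ), Continuous g → Continuous s →
    Continuous e → Continuous b → Continuous w → HasCompactSupport w → (∀ x, 0 ≤ w x) → (∀ x, ‖x‖ ≤ R → w x = 1) →
    (∀ p : R3 × R3, (R < ‖p.1‖ ∨ R < ‖p.2‖) → g p = 0) →
    (∀ p : R3 × R3, ‖p.1‖ ≤ R → ‖p.2‖ ≤ R → |s p| ≤ M * (‖e p.1‖ + ‖b p.1‖)) →
    Integrable (fun p => 2 * g p * s p) ∧
      ∫ p, 2 * g p * s p ≤ (∫ p, g p ^ 2) + C * ∫ x, w x * (‖e x‖ ^ 2 + ‖b x‖ ^ 2) := by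
  refine ⟨2 * M ^ 2 * (volume : Measure R3).real (Metric.closedBall 0 R), by positivity,
    fun g s e b w hg hs he hb hw hcw hw0 hw1 hg0 hsM => ?_⟩
  have hcg : HasCompactSupport g := HasCompactSupport.intro
    ((isCompact_closedBall (0 : R3) R).prod (isCompact_closedBall (0 : R3) R)) fun p hp => hg0 p (by
      simpa only [mem_prod, mem_closedBall_zero_iff, not_and_or, not_le] using hp)
  have i1 : Integrable (fun p => 2 * g p * s p) :=
    ((continuous_const.mul hg).mul hs).integrable_of_hasCompactSupport (hcg.mul_left.mul_right)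
  have i2 : Integrable (fun p => g p ^ 2) := by
    simp only [sq]
    exact (hg.mul hg).integrable_of_hasCompactSupport hcg.mul_right
  have i3 : Integrable (fun x => w x * (‖e x‖ ^ 2 + ‖b x‖ ^ 2)) :=
    (hw.mul ((he.norm.pow 2).add (hb.norm.pow 2))).integrable_of_hasCompactSupport hcw.mul_right
  have i4 : Integrable ((Metric.closedBall (0 : R3) R).indicator fun _ => 2 * M ^ 2) :=
    (integrable_indicator_iff measurableSet_closedBall).2 (integrableOn_const measure_closedBall_lt_top.ne)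
  have i5 : Integrable (fun p : R3 × R3 => w p.1 * (‖e p.1‖ ^ 2 + ‖b p.1‖ ^ 2) *
      (Metric.closedBall (0 : R3) R).indicator (fun _ => 2 * M ^ 2) p.2) := i3.mul_prod i4
  have e5 : ∫ p : R3 × R3, w p.1 * (‖e p.1‖ ^ 2 + ‖b p.1‖ ^ 2) * (Metric.closedBall (0 : R3) R).indicator (fun _ => 2 * M ^ 2) p.2 =
      2 * M ^ 2 * (volume : Measure R3).real (Metric.closedBall 0 R) * ∫ x, w x * (‖e x‖ ^ 2 + ‖b x‖ ^ 2) := by
    have := integral_prod_mul (μ := (volume : Measure R3)) (ν := (volume : Measure R3)) (fun x => w x * (‖e x‖ ^ 2 + ‖b x‖ ^ 2))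
      ((Metric.closedBall (0 : R3) R).indicator fun _ => 2 * M ^ 2)
    rw [integral_indicator measurableSet_closedBall, setIntegral_const, smul_eq_mul] at this
    rw [Measure.volume_eq_prod, this]; ring
  refine ⟨i1, ?_⟩
  rw [← e5, ← integral_add i2 i5]
  refine integral_mono i1 (i2.add i5) fun p => ?_
  by_cases hp : R < ‖p.1‖ ∨ R < ‖p.2‖
  · have h1 : 0 ≤ (Metric.closedBall (0 : R3) R).indicator (fun _ => 2 * M ^ 2) p.2 :=
      indicator_nonneg (fun _ _ => by positivity) _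
    have h2 := hw0 p.1
    simp only [hg0 p hp, mul_zero, zero_mul]
    positivity
  · rw [not_or, not_lt, not_lt] at hp
    have h1 := hsM p hp.1 hp.2
    have h2 : s p ^ 2 ≤ (M * (‖e p.1‖ + ‖b p.1‖)) ^ 2 := sq_le_sq' (abs_le.1 h1).1 (abs_le.1 h1).2
    simp only [hw1 p.1 hp.1, indicator_of_mem (mem_closedBall_zero_iff.2 hp.2)]
    nlinarith [sq_nonneg (g p - s p), mul_nonneg (sq_nonneg M) (sq_nonneg (‖e p.1‖ - ‖b p.1‖))]

theorem vlad_cs {h : R3 → ℝ} (hh : Continuous h) {K : Set R3} (hK : IsCompact K) :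
    (∫ v in K, |h v|) ^ 2 ≤ volume.real K * ∫ v in K, h v ^ 2 := by
  have hfin : volume K ≠ ⊤ := hK.measure_lt_top.ne
  have i1 : IntegrableOn (fun v => |h v|) K := hh.abs.continuousOn.integrableOn_compact hK
  have i2 : IntegrableOn (fun v => h v ^ 2) K := (hh.pow 2).continuousOn.integrableOn_compact hK
  have key : ∀ t : ℝ, 0 ≤ volume.real K * (t * t) + (-2 * ∫ v in K, |h v|) * t + ∫ v in K, h v ^ 2 := by
    intro t
    have i0 : IntegrableOn (fun _ : R3 => t * t) K := integrableOn_const hfin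
    have e : ∫ v in K, (|h v| - t) ^ 2 = volume.real K * (t * t) + (-2 * ∫ v in K, |h v|) * t + ∫ v in K, h v ^ 2 := by
      have : (fun v => (|h v| - t) ^ 2) = fun v => (t * t + (-2 * t) * |h v|) + h v ^ 2 := by
        funext v; rw [← sq_abs (h v)]; ring
      have i3 : IntegrableOn (fun v => t * t + (-2 * t) * |h v|) K := i0.add (i1.const_mul _)
      rw [this, integral_add i3 i2, integral_add i0 (i1.const_mul _), integral_const_mul (-2 * t),
        setIntegral_const, smul_eq_mul]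
      ring
    rw [← e]
    exact integral_nonneg fun v => sq_nonneg _
  have := discrim_le_zero key
  unfold discrim at this
  nlinarith

/-- the current: Cauchy-Schwarz in `v` on the ball of radius `R`, Fubini -/
theorem cur_le (R : ℝ) : ∃ C : ℝ, 0 ≤ C ∧ ∀ (g : R3 × R3 → ℝ) (w : R3 → ℝ), Continuous g → Continuous w →
    (∀ x, 0 ≤ w x ∧ w x ≤ 1) → (∀ p : R3 × R3, (R < ‖p.1‖ ∨ R < ‖p.2‖) → g p = 0) →
    Continuous (fun x => ∫ v, g (x, v) • relVel v) ∧
      ∫ x, w x * ‖∫ v, g (x, v) • relVel v‖ ^ 2 ≤ C * ∫ p, g p ^ 2 := by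
  set K : Set R3 := Metric.closedBall 0 R with hKdef
  have hK : IsCompact K := isCompact_closedBall 0 R
  refine ⟨volume.real K, measureReal_nonneg, fun g w hg _ hw h0 => ?_⟩
  have hout : ∀ x v, v ∉ K → g (x, v) = 0 := fun x v hv =>
    h0 (x, v) (Or.inr (by simpa [hKdef] using hv))
  have hu : Continuous relVel := contDiff_relVel.continuous
  have e1 : ∀ x, ∫ v, g (x, v) • relVel v = ∫ v in K, g (x, v) • relVel v := fun x =>
    (setIntegral_eq_integral_of_forall_compl_eq_zero fun v hv => by rw [hout x v hv, zero_smul]).symm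
  have e2 : ∀ x, ∫ v in K, g (x, v) ^ 2 = ∫ v, g (x, v) ^ 2 := fun x =>
    setIntegral_eq_integral_of_forall_compl_eq_zero fun v hv => by rw [hout x v hv]; ring
  have hcs : HasCompactSupport fun p : R3 × R3 => g p ^ 2 := by
    refine HasCompactSupport.intro (hK.prod hK) fun p hp => ?_
    have : g p = 0 := by
      apply h0
      by_contra hcon
      push Not at hcon
      exact hp ⟨by simpa [hKdef] using hcon.1, by simpa [hKdef] using hcon.2⟩
    rw [this]; ring
  have hint : Integrable (fun p : R3 × R3 => g p ^ 2) := (hg.pow 2).integrable_of_hasCompactSupport hcs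
  refine ⟨?_, ?_⟩
  · have : (fun x => ∫ v, g (x, v) • relVel v) = fun x => ∫ v in K, g (x, v) • relVel v := funext e1
    rw [this]
    exact continuous_parametric_integral_of_continuous (f := fun x v => g (x, v) • relVel v)
      (hg.smul (hu.comp continuous_snd)) hK
  · have hpt : ∀ x, w x * ‖∫ v, g (x, v) • relVel v‖ ^ 2 ≤ volume.real K * ∫ v, g (x, v) ^ 2 := by
      intro x
      have hgx : Continuous fun v => g (x, v) := hg.comp (Continuous.prodMk_right x)
      have h1 : ‖∫ v, g (x, v) • relVel v‖ ≤ ∫ v in K, |g (x, v)| := by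
        rw [e1]
        refine norm_integral_le_of_norm_le (hgx.abs.continuousOn.integrableOn_compact hK) (Filter.Eventually.of_forall fun v => ?_)
        rw [norm_smul, Real.norm_eq_abs]
        exact mul_le_of_le_one_right (abs_nonneg _) (norm_relVel_le v)
      have h2 := vlad_cs hgx hK
      rw [e2] at h2
      have h3 : ‖∫ v, g (x, v) • relVel v‖ ^ 2 ≤ (∫ v in K, |g (x, v)|) ^ 2 := pow_le_pow_left₀ (norm_nonneg _) h1 2
      calc w x * ‖∫ v, g (x, v) • relVel v‖ ^ 2 ≤ ‖∫ v, g (x, v) • relVel v‖ ^ 2 :=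
            mul_le_of_le_one_left (sq_nonneg _) (hw x).2
        _ ≤ _ := h3.trans h2
    rw [Measure.volume_eq_prod] at hint ⊢
    rw [integral_prod _ hint, ← integral_const_mul]
    exact integral_mono_of_nonneg (Filter.Eventually.of_forall fun x => mul_nonneg (hw x).1 (sq_nonneg _))
      (hint.integral_prod_left.const_mul _) (Filter.Eventually.of_forall hpt)

end Crest.Agent.R106.U
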