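import Crest.Prelude.Def_VlasovMaxwell

/-! Row 106, uniqueness: generic calculus (divergence theorem, derivative of an energy, Gronwall, weight). -/

set_option autoImplicit false

noncomputable section

namespace Crest.Agent.R106.U

open MeasureTheory Set Crest.AnalysisR.VecCalc3 Crest.AnalysisR.PDE.RVM

section
variable {X : Type*} [NormedAddCommGroup X] [NormedSpace ℝ X] [FiniteDimensional ℝ X] [MeasurableSpace X] [BorelSpace X]
  (μ : Measure X) [μ.IsAddHaarMeasure]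

/-- divergence theorem (`integral_mul_fderiv_eq_neg_fderiv_mul_of_integrable` with the constant `1`) -/
theorem int_fderiv_zero {G : X → ℝ} (hG : ContDiff ℝ 1 G) (hc : HasCompactSupport G) (v : X) :
    ∫ x, fderiv ℝ G x v ∂μ = 0 := by
  have h1 : Continuous fun x => fderiv ℝ G x v := (hG.continuous_fderiv one_ne_zero).clm_apply continuous_const
  have h := integral_mul_fderiv_eq_neg_fderiv_mul_of_integrable (μ := μ) (f := fun _ : X => (1 : ℝ)) (g := G) (v := v)
    (by simp) (by simpa using h1.integrable_of_hasCompactSupport (hc.fderiv_apply ℝ v))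
    (by simpa using hG.continuous.integrable_of_hasCompactSupport hc) (fun _ _ => differentiableAt_const _)
    (fun x _ => hG.differentiable one_ne_zero x)
  simpa using h

/-- continuity of an energy (`continuousOn_of_dominated`, bound on the compact set `Icc 0 T' ×ˢ K`) -/
theorem energy_cont {F : ℝ × X → ℝ} {T T' : ℝ} (hT : T' < T) (hF : ContDiffOn ℝ 1 F (Ico 0 T ×ˢ univ)) {K : Set X}
    (hK : IsCompact K) (h0 : ∀ t ∈ Icc 0 T', ∀ x ∉ K, F (t, x) = 0) :
    ContinuousOn (fun t => ∫ x, F (t, x) ∂μ) (Icc 0 T') := by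
  refine continuousOn_integral_of_compact_support (f := fun t x => F (t, x)) hK ?_ fun t x ht hx => h0 t ht x hx
  exact hF.continuousOn.mono (prod_mono (fun s hs => ⟨hs.1, hs.2.trans_lt hT⟩) subset_rfl)

/-- derivative of an energy (`hasDerivAt_integral_of_dominated_loc_of_deriv_le`; `F` is `C¹` on the open set `Ioo 0 T ×ˢ univ`,
the time derivative is `fderiv ℝ F (s, x) (1, 0)`, bounded on `closedBall t ε ×ˢ K` and zero for `x ∉ K`) -/
theorem energy_deriv {F : ℝ × X → ℝ} {T T' : ℝ} (hT : T' < T) (hF : ContDiffOn ℝ 1 F (Ico 0 T ×ˢ univ)) {K : Set X}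
    (hK : IsCompact K) (h0 : ∀ t ∈ Icc 0 T', ∀ x ∉ K, F (t, x) = 0) {t : ℝ} (ht : t ∈ Ioo 0 T') :
    HasDerivAt (fun t => ∫ x, F (t, x) ∂μ) (∫ x, deriv (fun s => F (s, x)) t ∂μ) t := by
  have hU : IsOpen (Ioo (0 : ℝ) T ×ˢ (univ : Set X)) := isOpen_Ioo.prod isOpen_univ
  have hF' : ContDiffOn ℝ 1 F (Ioo 0 T ×ˢ univ) := hF.mono (prod_mono Ioo_subset_Ico_self subset_rfl)
  have hD : ContinuousOn (fun p => fderiv ℝ F p (1, 0)) (Ioo 0 T ×ˢ univ) :=
    (hF'.continuousOn_fderiv_of_isOpen hU le_rfl).clm_apply continuousOn_const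
  have hder : ∀ s ∈ Ioo 0 T, ∀ x, HasDerivAt (fun s => F (s, x)) (fderiv ℝ F (s, x) (1, 0)) s := fun s hs x => by
    have h1 : DifferentiableAt ℝ F (s, x) := (hF'.contDiffAt (hU.mem_nhds ⟨hs, trivial⟩)).differentiableAt one_ne_zero
    exact h1.hasFDerivAt.comp_hasDerivAt s ((hasDerivAt_id s).prodMk (hasDerivAt_const s x))
  obtain ⟨a, ha0, hat⟩ := exists_between ht.1
  obtain ⟨b, htb, hbT⟩ := exists_between ht.2
  have hsub : Icc a b ⊆ Ioo 0 T := fun s hs => ⟨ha0.trans_le hs.1, hs.2.trans_lt (hbT.trans hT)⟩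
  have htT : t ∈ Ioo 0 T := hsub ⟨hat.le, htb.le⟩
  obtain ⟨M, hM⟩ := (isCompact_Icc.prod hK).exists_bound_of_continuousOn (hD.mono (prod_mono hsub (subset_univ K)))
  have hz : ∀ s ∈ Icc a b, ∀ x ∉ K, fderiv ℝ F (s, x) (1, 0) = 0 := fun s hs x hx => by
    refine (hder s (hsub hs) x).unique ((hasDerivAt_const s (0 : ℝ)).congr_of_eventuallyEq ?_)
    filter_upwards [Ioo_mem_nhds (ha0.trans_le hs.1) (hs.2.trans_lt hbT)] with r hr
    exact h0 r (Ioo_subset_Icc_self hr) x hx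
  have hc : ∀ s ∈ Ioo 0 T, Continuous fun x => F (s, x) := fun s hs =>
    hF'.continuousOn.comp_continuous (continuous_const.prodMk continuous_id) fun x => ⟨hs, trivial⟩
  have key := hasDerivAt_integral_of_dominated_loc_of_deriv_le (μ := μ) (F := fun s x => F (s, x))
    (F' := fun s x => fderiv ℝ F (s, x) (1, 0)) (bound := K.indicator fun _ => M) (Icc_mem_nhds hat htb)
    (by filter_upwards [Ioo_mem_nhds htT.1 htT.2] with s hs using (hc s hs).aestronglyMeasurable)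
    ((hc t htT).integrable_of_hasCompactSupport
      (HasCompactSupport.intro hK fun x hx => h0 t (Ioo_subset_Icc_self ht) x hx))
    (hD.comp_continuous (continuous_const.prodMk continuous_id) fun x => ⟨htT, trivial⟩).aestronglyMeasurable
    (ae_of_all _ fun x s hs => by
      by_cases hx : x ∈ K
      · rw [indicator_of_mem hx]; exact hM (s, x) ⟨hs, hx⟩
      · rw [indicator_of_notMem hx, hz s hs x hx, norm_zero])
    ((integrable_indicator_iff hK.measurableSet).2 (integrableOn_const hK.measure_ne_top))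
    (ae_of_all _ fun x s hs => hder s (hsub hs) x)
  simpa only [(hder t htT _).deriv] using key.2

end

section
variable {X Y : Type*} [NormedAddCommGroup X] [NormedSpace ℝ X] [NormedAddCommGroup Y] [NormedSpace ℝ Y]

/-- space slices -/
theorem slice_space {F : ℝ × X → Y} {T : ℝ} (hF : ContDiffOn ℝ 1 F (Ico 0 T ×ˢ univ)) {t : ℝ} (ht : t ∈ Ico 0 T) :
    ContDiff ℝ 1 fun x => F (t, x) := by
  exact hF.comp_contDiff (contDiff_const.prodMk contDiff_id) fun x => ⟨ht, mem_univ x⟩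

/-- time slices -/
theorem slice_time {F : ℝ × X → Y} {T : ℝ} (hF : ContDiffOn ℝ 1 F (Ico 0 T ×ˢ univ)) {t : ℝ} (ht : t ∈ Ioo 0 T) (x : X) :
    DifferentiableAt ℝ (fun s => F (s, x)) t := by
  have h : Ico 0 T ×ˢ (univ : Set X) ∈ nhds (t, x) := prod_mem_nhds (Ico_mem_nhds ht.1 ht.2) Filter.univ_mem
  exact ((hF.contDiffAt h).differentiableAt one_ne_zero).comp t (differentiableAt_id.prodMk (differentiableAt_const x))

/-- uniform bound of the space derivatives on compact sets (`fderivWithin` is continuous on `Ico 0 T ×ˢ univ`, and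
`fderiv ℝ (fun y => F (t, y)) x = (fderivWithin ℝ F _ (t, x)).comp (inr ..)`) -/
theorem slice_bound {F : ℝ × X → Y} {T T' : ℝ} (hT : T' < T) (hF : ContDiffOn ℝ 1 F (Ico 0 T ×ˢ univ)) {K : Set X}
    (hK : IsCompact K) : ∃ M : ℝ, 0 ≤ M ∧ ∀ t ∈ Icc 0 T', ∀ x ∈ K, ‖fderiv ℝ (fun y => F (t, y)) x‖ ≤ M := by
  have hU : UniqueDiffOn ℝ (Ico 0 T ×ˢ (univ : Set X)) := (uniqueDiffOn_Ico 0 T).prod uniqueDiffOn_univ
  have hs : Icc 0 T' ×ˢ K ⊆ Ico 0 T ×ˢ (univ : Set X) := prod_mono (Icc_subset_Ico_right hT) (subset_univ _)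
  obtain ⟨M, hM⟩ := (isCompact_Icc.prod hK).exists_bound_of_continuousOn ((hF.continuousOn_fderivWithin hU le_rfl).mono hs)
  refine ⟨max M 0, le_max_right _ _, fun t ht x hx => ?_⟩
  have h1 := (hF.differentiableOn one_ne_zero (t, x) (hs ⟨ht, hx⟩)).hasFDerivWithinAt.comp_hasFDerivAt x
    (hasFDerivAt_prodMk_right t x) (Filter.Eventually.of_forall fun y => ⟨(hs (a := (t, x)) ⟨ht, hx⟩).1, mem_univ y⟩)
  rw [show fderiv ℝ (fun y => F (t, y)) x = _ from h1.fderiv]
  refine (ContinuousLinearMap.opNorm_comp_le _ _).trans ?_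
  exact (mul_le_of_le_one_right (norm_nonneg _) (ContinuousLinearMap.norm_inr_le_one _ _ _)).trans
    ((hM (t, x) ⟨ht, hx⟩).trans (le_max_left _ _))

end

/-- Gronwall (`exp (-C t) * N t` is antitone: `antitoneOn_of_deriv_nonpos`) -/
theorem gron {N : ℝ → ℝ} {T' C : ℝ} (hc : ContinuousOn N (Icc 0 T')) (h0 : N 0 = 0) (hp : ∀ t, 0 ≤ N t)
    (hd : ∀ t ∈ Ioo 0 T', ∃ D, HasDerivAt N D t ∧ D ≤ C * N t) : ∀ t ∈ Icc 0 T', N t = 0 := by
  intro t ht
  have hder : ∀ s ∈ interior (Icc 0 T'), ∃ D, HasDerivAt (fun s => Real.exp (-C * s) * N s) D s ∧ D ≤ 0 := fun s hs => by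
    rw [interior_Icc] at hs
    obtain ⟨D, h1, h2⟩ := hd s hs
    refine ⟨_, ((hasDerivAt_id' s).const_mul (-C)).exp.mul h1, ?_⟩
    have := mul_le_mul_of_nonneg_left h2 (Real.exp_pos (-C * s)).le
    linarith
  have h := antitoneOn_of_deriv_nonpos (convex_Icc 0 T') (f := fun s => Real.exp (-C * s) * N s)
    ((by fun_prop : Continuous fun s => Real.exp (-C * s)).continuousOn.mul hc)
    (fun s hs => (hder s hs).choose_spec.1.differentiableAt.differentiableWithinAt)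
    (fun s hs => by rw [(hder s hs).choose_spec.1.deriv]; exact (hder s hs).choose_spec.2)
    (left_mem_Icc.2 (ht.1.trans ht.2)) ht ht.1
  simp only [h0, mul_zero] at h
  exact le_antisymm (nonpos_of_mul_nonpos_right h (Real.exp_pos _)) (hp t)

/-- a weight for the backward light cone: `w (t, x) = 1 - Real.smoothTransition (t + √(1 + ‖x‖ ^ 2) - (A + 1))` -/
theorem exists_weight (A : ℝ) : ∃ w : ℝ × R3 → ℝ, ContDiff ℝ 1 w ∧ (∀ p, 0 ≤ w p ∧ w p ≤ 1) ∧
    (∀ t x, t + ‖x‖ ≤ A → w (t, x) = 1) ∧ (∀ t x, 0 ≤ t → A + 2 ≤ ‖x‖ → w (t, x) = 0) ∧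
    ∀ t x, deriv (fun s => w (s, x)) t + ‖fderiv ℝ (fun y => w (t, y)) x‖ ≤ 0 := by
  have hpos : ∀ x : R3, 0 < 1 + ‖x‖ ^ 2 := fun x => by positivity
  have hge : ∀ x : R3, ‖x‖ ≤ √(1 + ‖x‖ ^ 2) := fun x => Real.le_sqrt_of_sq_le (by linarith)
  have hle : ∀ x : R3, √(1 + ‖x‖ ^ 2) ≤ 1 + ‖x‖ := fun x =>
    Real.sqrt_le_iff.2 ⟨by positivity, by nlinarith [norm_nonneg x]⟩
  have hg : ContDiff ℝ 1 fun x : R3 => √(1 + ‖x‖ ^ 2) :=
    (contDiff_const.add (contDiff_norm_sq ℝ)).sqrt fun x => (hpos x).ne'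
  have hS : ContDiff ℝ 1 Real.smoothTransition := Real.smoothTransition.contDiff
  refine ⟨fun p => 1 - Real.smoothTransition (p.1 + √(1 + ‖p.2‖ ^ 2) - (A + 1)), ?_, fun p => ⟨?_, ?_⟩, fun t x h => ?_,
    fun t x ht h => ?_, fun t x => ?_⟩
  · exact contDiff_const.sub (hS.comp ((contDiff_fst.add (hg.comp contDiff_snd)).sub contDiff_const))
  · exact sub_nonneg.2 (Real.smoothTransition.le_one _)
  · exact sub_le_self _ (Real.smoothTransition.nonneg _)
  · have := hle x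
    simp only
    rw [Real.smoothTransition.zero_of_nonpos (by linarith), sub_zero]
  · have := hge x
    simp only
    rw [Real.smoothTransition.one_of_one_le (by linarith), sub_self]
  · obtain ⟨d, hd⟩ : ∃ d, d = deriv Real.smoothTransition (t + √(1 + ‖x‖ ^ 2) - (A + 1)) := ⟨_, rfl⟩
    have hd0 : 0 ≤ d := hd ▸ Real.smoothTransition.monotone.deriv_nonneg
    have h1 : HasDerivAt Real.smoothTransition d (t + √(1 + ‖x‖ ^ 2) - (A + 1)) :=
      hd ▸ (hS.differentiable one_ne_zero _).hasDerivAt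
    have h2 : HasDerivAt (fun s : ℝ => 1 - Real.smoothTransition (s + √(1 + ‖x‖ ^ 2) - (A + 1))) (-(d * 1)) t :=
      (HasDerivAt.comp (h := fun s : ℝ => s + √(1 + ‖x‖ ^ 2) - (A + 1)) t h1
        (((hasDerivAt_id' t).add_const _).sub_const _)).const_sub 1
    have h3 : HasFDerivAt (fun y : R3 => √(1 + ‖y‖ ^ 2)) ((1 / (2 * √(1 + ‖x‖ ^ 2))) • (2 • innerSL ℝ x)) x :=
      ((hasStrictFDerivAt_norm_sq x).hasFDerivAt.const_add 1).sqrt (hpos x).ne'
    have h4 : HasFDerivAt (fun y : R3 => 1 - Real.smoothTransition (t + √(1 + ‖y‖ ^ 2) - (A + 1)))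
        (-(d • ((1 / (2 * √(1 + ‖x‖ ^ 2))) • (2 • innerSL ℝ x)))) x :=
      (HasDerivAt.comp_hasFDerivAt (f := fun y : R3 => t + √(1 + ‖y‖ ^ 2) - (A + 1)) x h1
        ((h3.const_add t).sub_const _)).const_sub 1
    have h5 : 0 < √(1 + ‖x‖ ^ 2) := Real.sqrt_pos.2 (hpos x)
    have h6 : ‖(1 / (2 * √(1 + ‖x‖ ^ 2))) • ((2 : ℕ) • innerSL ℝ x : R3 →L[ℝ] ℝ)‖ ≤ 1 := by
      have h7 : ‖((2 : ℕ) • innerSL ℝ x : R3 →L[ℝ] ℝ)‖ ≤ 2 * ‖x‖ := by
        rw [two_smul, two_mul]
        exact (norm_add_le _ _).trans (le_of_eq (by rw [innerSL_apply_norm]))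
      rw [norm_smul, Real.norm_of_nonneg (by positivity), one_div, inv_mul_le_iff₀ (by positivity)]
      linarith [hge x]
    simp only
    rw [h2.deriv, h4.fderiv, norm_neg, norm_smul, Real.norm_of_nonneg hd0]
    nlinarith

end Crest.Agent.R106.U
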