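import Crest.Agent.R106.U.Max

/-! Row 106, uniqueness of classical solutions. -/

set_option autoImplicit false

noncomputable section

namespace Crest.Agent.R106.U

open MeasureTheory Set Crest.AnalysisR.VecCalc3 Crest.AnalysisR.PDE.RVM

variable {T T' R : ℝ} {f₀ : R3 → R3 → ℝ} {E₀ B₀ : R3 → R3} {f f' : ℝ → R3 → R3 → ℝ} {E B E' B' : ℝ → R3 → R3}

theorem haar6 : (volume : Measure (R3 × R3)).IsAddHaarMeasure := Measure.prod.instIsAddHaarMeasure _ _

theorem ma_pv {g : R3 → R3 → ℝ} (hg : Differentiable ℝ fun p : R3 × R3 => g p.1 p.2) (x v : R3) (i : Fin 3) :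
    pderiv (fun w => g x w) i v = fderiv ℝ (fun p : R3 × R3 => g p.1 p.2) (x, v) (0, EuclideanSpace.single i 1) := by
  have h1 : HasFDerivAt (fun w : R3 => ((x, w) : R3 × R3)) (ContinuousLinearMap.inr ℝ R3 R3) v :=
    hasFDerivAt_prodMk_right x v
  have h2 := ((hg (x, v)).hasFDerivAt).comp v h1
  unfold pderiv
  have : (fun w => g x w) = (fun p : R3 × R3 => g p.1 p.2) ∘ fun w : R3 => ((x, w) : R3 × R3) := rfl
  rw [this, h2.fderiv]
  simp

theorem ma_px {g : R3 → R3 → ℝ} (hg : Differentiable ℝ fun p : R3 × R3 => g p.1 p.2) (x v : R3) (i : Fin 3) :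
    pderiv (fun y => g y v) i x = fderiv ℝ (fun p : R3 × R3 => g p.1 p.2) (x, v) (EuclideanSpace.single i 1, 0) := by
  have h1 : HasFDerivAt (fun y : R3 => ((y, v) : R3 × R3)) (ContinuousLinearMap.inl ℝ R3 R3) x :=
    hasFDerivAt_prodMk_left x v
  have h2 := ((hg (x, v)).hasFDerivAt).comp x h1
  unfold pderiv
  have : (fun y => g y v) = (fun p : R3 × R3 => g p.1 p.2) ∘ fun y : R3 => ((y, v) : R3 × R3) := rfl
  rw [this, h2.fderiv]
  simp

theorem ma_sum (L : R3 × R3 →L[ℝ] ℝ) (a : R3) :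
    ∑ i : Fin 3, a i * L (0, EuclideanSpace.single i 1) = L (0, a) := by
  have h : ((0, a) : R3 × R3) = ∑ i : Fin 3, a i • ((0, EuclideanSpace.single i 1) : R3 × R3) := by
    ext j
    · simp [Fin.sum_univ_three]
    · fin_cases j <;> simp [Fin.sum_univ_three]
  rw [h, map_sum]
  simp only [map_smul, smul_eq_mul]

theorem ma_cross_sub (u b b' : R3) (i : Fin 3) : cross3 u (b - b') i = cross3 u b i - cross3 u b' i := by
  fin_cases i <;> simp [cross3] <;> ring

/-- With `g = f - f'`: `∂ₜ g = -tr (E t) (B t) (g t) + s`, `s = -∑ i, ((E - E') i + cross3 (relVel v) (B - B') i) * ∂_{v_i} f'`;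
`energy_deriv` for `g²`, `int_tr`, `slice_bound` for `f'` (gives `M`), `src_le`. -/
theorem vla_step (h : IsClassicalSolutionOn T f₀ E₀ B₀ f E B) (h' : IsClassicalSolutionOn T f₀ E₀ B₀ f' E' B') (hT : T' < T)
    (hR : ∀ t ∈ Icc 0 T', ∀ x v : R3, (R < ‖x‖ ∨ R < ‖v‖) → f t x v = 0 ∧ f' t x v = 0) :
    ∃ C : ℝ, 0 ≤ C ∧ ∀ t ∈ Ioo 0 T', ∀ w : R3 → ℝ, Continuous w → HasCompactSupport w → (∀ x, 0 ≤ w x) →
      (∀ x, ‖x‖ ≤ R → w x = 1) → ∃ D, HasDerivAt (fun s => ∫ p : R3 × R3, (f s p.1 p.2 - f' s p.1 p.2) ^ 2) D t ∧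
        D ≤ (∫ p : R3 × R3, (f t p.1 p.2 - f' t p.1 p.2) ^ 2) +
          C * ∫ x, w x * (‖E t x - E' t x‖ ^ 2 + ‖B t x - B' t x‖ ^ 2) := by
  obtain ⟨hf, hE, hB, -, -, -, heq, -, -⟩ := h
  obtain ⟨hf', hE', hB', -, -, -, heq', -, -⟩ := h'
  set K : Set (R3 × R3) := Metric.closedBall 0 R ×ˢ Metric.closedBall 0 R with hKdef
  have hK : IsCompact K := (isCompact_closedBall _ _).prod (isCompact_closedBall _ _)
  have hKout : ∀ p : R3 × R3, p ∉ K → (R < ‖p.1‖ ∨ R < ‖p.2‖) := by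
    intro p hp
    by_contra hn
    push Not at hn
    exact hp ⟨by simpa using hn.1, by simpa using hn.2⟩
  obtain ⟨M, hM0, hM⟩ := slice_bound (F := fun p : ℝ × R3 × R3 => f' p.1 p.2.1 p.2.2) hT hf' hK
  obtain ⟨C, hC0, hC⟩ := src_le R M
  refine ⟨C, hC0, fun t ht w hw hwc hw0 hw1 => ?_⟩
  have htI : t ∈ Ico 0 T := ⟨ht.1.le, ht.2.trans hT⟩
  have htO : t ∈ Ioo 0 T := ⟨ht.1, ht.2.trans hT⟩
  have htC : t ∈ Icc 0 T' := ⟨ht.1.le, ht.2.le⟩
  have hF : ContDiffOn ℝ 1 (fun p : ℝ × R3 × R3 => (f p.1 p.2.1 p.2.2 - f' p.1 p.2.1 p.2.2) ^ 2) (Ico 0 T ×ˢ univ) :=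
    (hf.sub hf').pow 2
  have : (volume : Measure (R3 × R3)).IsAddHaarMeasure := Measure.prod.instIsAddHaarMeasure _ _
  have hD := energy_deriv (volume : Measure (R3 × R3)) hT hF hK (by
    intro s hs p hp
    obtain ⟨a, b⟩ := hR s hs p.1 p.2 (hKout p hp)
    simp [a, b]) ht
  refine ⟨_, hD, ?_⟩
  have c1 : ContDiff ℝ 1 fun p : R3 × R3 => f t p.1 p.2 := slice_space hf htI
  have c2 : ContDiff ℝ 1 fun p : R3 × R3 => f' t p.1 p.2 := slice_space hf' htI
  have cE : ContDiff ℝ 1 (E t) := slice_space hE htI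
  have cB : ContDiff ℝ 1 (B t) := slice_space hB htI
  have cE' : ContDiff ℝ 1 (E' t) := slice_space hE' htI
  have cB' : ContDiff ℝ 1 (B' t) := slice_space hB' htI
  have d1 : Differentiable ℝ fun p : R3 × R3 => f t p.1 p.2 := c1.differentiable one_ne_zero
  have d2 : Differentiable ℝ fun p : R3 × R3 => f' t p.1 p.2 := c2.differentiable one_ne_zero
  set g : R3 → R3 → ℝ := fun x v => f t x v - f' t x v with hg
  have cg : ContDiff ℝ 1 fun p : R3 × R3 => g p.1 p.2 := c1.sub c2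
  have g0 : ∀ p : R3 × R3, (R < ‖p.1‖ ∨ R < ‖p.2‖) → g p.1 p.2 = 0 := by
    intro p hp
    obtain ⟨a, b⟩ := hR t htC p.1 p.2 hp
    simp [hg, a, b]
  have hgc : HasCompactSupport fun p : R3 × R3 => g p.1 p.2 :=
    HasCompactSupport.intro hK fun p hp => g0 p (hKout p hp)
  obtain ⟨hI1, hI2⟩ := int_tr cE cB cg hgc
  set a : R3 × R3 → R3 := fun p => (E t p.1 - E' t p.1) + cross3 (relVel p.2) (B t p.1 - B' t p.1) with ha
  have ca : Continuous a := by
    refine Continuous.add ((cE.continuous.sub cE'.continuous).comp continuous_fst) ?_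
    exact continuous_cross3 (contDiff_relVel.continuous.comp continuous_snd)
      ((cB.continuous.sub cB'.continuous).comp continuous_fst)
  set s : R3 × R3 → ℝ := fun p => -(fderiv ℝ (fun p : R3 × R3 => f' t p.1 p.2) p (0, a p)) with hs
  have cs : Continuous s := by
    refine Continuous.neg ?_
    exact (c2.continuous_fderiv one_ne_zero).clm_apply (continuous_const.prodMk ca)
  obtain ⟨hJ1, hJ2⟩ := hC (fun p => g p.1 p.2) s (fun x => E t x - E' t x) (fun x => B t x - B' t x) w cg.continuous cs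
    (cE.continuous.sub cE'.continuous) (cB.continuous.sub cB'.continuous) hw hwc hw0 hw1 g0 (by
      intro p h1 h2
      have hp : p ∈ K := ⟨by simpa using h1, by simpa using h2⟩
      have hb := hM t htC p hp
      simp only [hs, abs_neg]
      rw [← Real.norm_eq_abs]
      refine (ContinuousLinearMap.le_opNorm _ _).trans (mul_le_mul hb ?_ (norm_nonneg _) hM0)
      rw [Prod.norm_mk, norm_zero, max_eq_right (norm_nonneg _)]
      refine (norm_add_le _ _).trans (add_le_add le_rfl ?_)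
      refine (norm_cross3_le _ _).trans ?_
      exact mul_le_of_le_one_left (norm_nonneg _) (norm_relVel_le _))
  have key : ∀ p : R3 × R3, deriv (fun s => (f s p.1 p.2 - f' s p.1 p.2) ^ 2) t =
      2 * g p.1 p.2 * s p - 2 * g p.1 p.2 * tr (E t) (B t) g p.1 p.2 := by
    rintro ⟨x, v⟩
    have t1 : DifferentiableAt ℝ (fun s => f s x v) t := slice_time hf htO (x, v)
    have t2 : DifferentiableAt ℝ (fun s => f' s x v) t := slice_time hf' htO (x, v)
    have e1 := (heq t ht.1 htO.2 x).1 v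
    have e2 := (heq' t ht.1 htO.2 x).1 v
    have hd := ((t1.hasDerivAt.sub t2.hasDerivAt).pow 2).deriv
    have hd' : deriv (fun s => (f s x v - f' s x v) ^ 2) t =
        2 * g x v * (deriv (fun s => f s x v) t - deriv (fun s => f' s x v) t) := by
      refine Eq.trans hd ?_
      simp [hg]
    have hfd : fderiv ℝ (fun p : R3 × R3 => g p.1 p.2) (x, v) =
        fderiv ℝ (fun p : R3 × R3 => f t p.1 p.2) (x, v) - fderiv ℝ (fun p : R3 × R3 => f' t p.1 p.2) (x, v) :=
      fderiv_fun_sub (d1 _) (d2 _)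
    have hs' : s (x, v) = -∑ i : Fin 3, a (x, v) i *
        fderiv ℝ (fun p : R3 × R3 => f' t p.1 p.2) (x, v) (0, EuclideanSpace.single i 1) := by
      rw [ma_sum]
    simp only [ma_pv d1, ma_px d1] at e1
    simp only [ma_pv d2, ma_px d2] at e2
    simp only [hd', hs', tr, ma_pv (cg.differentiable one_ne_zero), ma_px (cg.differentiable one_ne_zero), hfd,
      sub_apply, ha, PiLp.add_apply, PiLp.sub_apply, ma_cross_sub, Fin.sum_univ_three] at e1 e2 ⊢
    linear_combination (2 * g x v) * (e1 - e2)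
  simp only [key]
  rw [integral_sub hJ1 hI1, hI2, sub_zero]
  exact hJ2

theorem mainb_vec {u : ℝ → R3} {t : ℝ} (hu : DifferentiableAt ℝ u t) (i : Fin 3) :
    deriv (fun s => u s i) t = deriv u t i := by
  have h1 : HasDerivAt (fun s => (EuclideanSpace.proj i : R3 →L[ℝ] ℝ) (u s))
      ((EuclideanSpace.proj i : R3 →L[ℝ] ℝ) (deriv u t)) t :=
    (EuclideanSpace.proj i : R3 →L[ℝ] ℝ).hasFDerivAt.comp_hasDerivAt t hu.hasDerivAt
  exact h1.deriv

theorem mainb_pderiv_sub {a b : R3 → R3} (ha : ContDiff ℝ 1 a) (hb : ContDiff ℝ 1 b) (i k : Fin 3) (x : R3) :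
    pderiv (fun y => (a y - b y) i) k x = pderiv (fun y => a y i) k x - pderiv (fun y => b y i) k x := by
  have h1 : DifferentiableAt ℝ (fun y => a y i) x :=
    (EuclideanSpace.proj i : R3 →L[ℝ] ℝ).differentiableAt.comp x (ha.differentiable one_ne_zero x)
  have h2 : DifferentiableAt ℝ (fun y => b y i) x :=
    (EuclideanSpace.proj i : R3 →L[ℝ] ℝ).differentiableAt.comp x (hb.differentiable one_ne_zero x)
  unfold pderiv
  have : (fun y => (a y - b y) i) = fun y => a y i - b y i := by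
    funext y; simp
  rw [this, fderiv_fun_sub h1 h2]
  rfl

theorem mainb_curl_sub {a b : R3 → R3} (ha : ContDiff ℝ 1 a) (hb : ContDiff ℝ 1 b) (x : R3) :
    curl3 (fun y => a y - b y) x = curl3 a x - curl3 b x := by
  ext i
  have h := mainb_pderiv_sub ha hb
  fin_cases i
  · simp only [curl3, h]; simp; ring
  · simp only [curl3, h]; simp; ring
  · simp only [curl3, h]; simp; ring

theorem mainb_int {g : R3 → ℝ} (hg : Continuous g) {R : ℝ} (h0 : ∀ v, R < ‖v‖ → g v = 0) :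
    Integrable fun v => g v • relVel v := by
  refine (hg.smul contDiff_relVel.continuous).integrable_of_hasCompactSupport ?_
  refine HasCompactSupport.intro (isCompact_closedBall (0 : R3) R) fun v hv => ?_
  have : R < ‖v‖ := by simpa using hv
  simp [h0 v this]

/-- With `e = E - E'`, `b = B - B'`, `j x = ∫ v, (f - f') t x v • relVel v`: `∂ₜ e = curl b - j`, `∂ₜ b = -curl e` (componentwise
from `EquationsHoldAt`, `slice_time`); `energy_deriv` for `w (‖e‖² + ‖b‖²)`, `max_le`, `cur_le`. -/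
theorem max_step (h : IsClassicalSolutionOn T f₀ E₀ B₀ f E B) (h' : IsClassicalSolutionOn T f₀ E₀ B₀ f' E' B') (hT : T' < T)
    (hR : ∀ t ∈ Icc 0 T', ∀ x v : R3, (R < ‖x‖ ∨ R < ‖v‖) → f t x v = 0 ∧ f' t x v = 0) {w : ℝ × R3 → ℝ} {A : ℝ}
    (hw : ContDiff ℝ 1 w) (h01 : ∀ p, 0 ≤ w p ∧ w p ≤ 1) (hA : ∀ t x, 0 ≤ t → A ≤ ‖x‖ → w (t, x) = 0)
    (hn : ∀ t x, deriv (fun s => w (s, x)) t + ‖fderiv ℝ (fun y => w (t, y)) x‖ ≤ 0) :
    ∃ C : ℝ, 0 ≤ C ∧ ∀ t ∈ Ioo 0 T', ∃ D,
      HasDerivAt (fun s => ∫ x, w (s, x) * (‖E s x - E' s x‖ ^ 2 + ‖B s x - B' s x‖ ^ 2)) D t ∧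
        D ≤ (∫ x, w (t, x) * (‖E t x - E' t x‖ ^ 2 + ‖B t x - B' t x‖ ^ 2)) +
          C * ∫ p : R3 × R3, (f t p.1 p.2 - f' t p.1 p.2) ^ 2 := by
  obtain ⟨hf, hE, hB, -, -, -, heq, -, -⟩ := h
  obtain ⟨hf', hE', hB', -, -, -, heq', -, -⟩ := h'
  obtain ⟨C, hC, hcur⟩ := cur_le R
  refine ⟨C, hC, fun t ht => ?_⟩
  have htT : t ∈ Ioo 0 T := ⟨ht.1, ht.2.trans hT⟩
  have htc : t ∈ Ico 0 T := ⟨ht.1.le, htT.2⟩
  have htI : t ∈ Icc 0 T' := ⟨ht.1.le, ht.2.le⟩
  have hF : ContDiffOn ℝ 1 (fun p : ℝ × R3 =>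
      w p * (‖E p.1 p.2 - E' p.1 p.2‖ ^ 2 + ‖B p.1 p.2 - B' p.1 p.2‖ ^ 2)) (Ico 0 T ×ˢ univ) :=
    hw.contDiffOn.mul (((hE.sub hE').norm_sq ℝ).add ((hB.sub hB').norm_sq ℝ))
  have hD := energy_deriv (volume : Measure R3) hT hF (isCompact_closedBall (0 : R3) A) (fun s hs x hx => by
    have : A < ‖x‖ := by simpa using hx
    simp [hA s x hs.1 this.le]) ht
  refine ⟨_, hD, ?_⟩
  have sE : ContDiff ℝ 1 (E t) := slice_space hE htc
  have sE' : ContDiff ℝ 1 (E' t) := slice_space hE' htc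
  have sB : ContDiff ℝ 1 (B t) := slice_space hB htc
  have sB' : ContDiff ℝ 1 (B' t) := slice_space hB' htc
  have sf : ContDiff ℝ 1 fun p : R3 × R3 => f t p.1 p.2 := slice_space hf htc
  have sf' : ContDiff ℝ 1 fun p : R3 × R3 => f' t p.1 p.2 := slice_space hf' htc
  have sw : ContDiff ℝ 1 fun x : R3 => w (t, x) := hw.comp (contDiff_const.prodMk contDiff_id)
  obtain ⟨hj, hjle⟩ := hcur (fun p => f t p.1 p.2 - f' t p.1 p.2) (fun x => w (t, x)) (sf.continuous.sub sf'.continuous)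
    sw.continuous (fun x => h01 _) (fun p hp => by simp [(hR t htI p.1 p.2 hp).1, (hR t htI p.1 p.2 hp).2])
  have hwd : ∀ x, HasDerivAt (fun s => w (s, x)) (fderiv ℝ w (t, x) (1, 0)) t := fun x =>
    (hw.differentiable one_ne_zero (t, x)).hasFDerivAt.comp_hasDerivAt t
      ((hasDerivAt_id t).prodMk (hasDerivAt_const t x))
  have hwt : Continuous fun x : R3 => deriv (fun s => w (s, x)) t := by
    simp only [fun x => (hwd x).deriv]
    exact ((hw.continuous_fderiv one_ne_zero).comp (continuous_const.prodMk continuous_id)).clm_apply continuous_const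
  have hct : HasCompactSupport fun x : R3 => deriv (fun s => w (s, x)) t := by
    refine HasCompactSupport.intro (isCompact_closedBall (0 : R3) A) fun x hx => ?_
    have hx' : A < ‖x‖ := by simpa using hx
    have : (fun s => w (s, x)) =ᶠ[nhds t] fun _ => 0 := by
      filter_upwards [Ioi_mem_nhds ht.1] with s hs using hA s x (le_of_lt hs) hx'.le
    rw [this.deriv_eq]; simp
  have hc : HasCompactSupport fun x : R3 => w (t, x) := by
    refine HasCompactSupport.intro (isCompact_closedBall (0 : R3) A) fun x hx => ?_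
    have hx' : A < ‖x‖ := by simpa using hx
    exact hA t x ht.1.le hx'.le
  have hle := max_le (sE.sub sE') (sB.sub sB') hj sw hc (fun x => (h01 _).1) hwt hct (fun x => hn t x)
  refine le_trans (le_of_eq ?_) (hle.trans (add_le_add le_rfl hjle))
  refine integral_congr_ae (Filter.Eventually.of_forall fun x => ?_)
  have dE : DifferentiableAt ℝ (fun s => E s x) t := slice_time hE htT x
  have dE' : DifferentiableAt ℝ (fun s => E' s x) t := slice_time hE' htT x
  have dB : DifferentiableAt ℝ (fun s => B s x) t := slice_time hB htT x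
  have dB' : DifferentiableAt ℝ (fun s => B' s x) t := slice_time hB' htT x
  obtain ⟨-, a1, a2, -, -⟩ := heq t htT.1 htT.2 x
  obtain ⟨-, b1, b2, -, -⟩ := heq' t htT.1 htT.2 x
  have hjx : (∫ v, (f t x v - f' t x v) • relVel v) = currentDensity f t x - currentDensity f' t x := by
    unfold currentDensity
    have k1 : Continuous fun v => f t x v := sf.continuous.comp (continuous_const.prodMk continuous_id)
    have k2 : Continuous fun v => f' t x v := sf'.continuous.comp (continuous_const.prodMk continuous_id)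
    rw [← integral_sub (mainb_int (R := R) k1 fun v hv => (hR t htI x v (Or.inr hv)).1)
      (mainb_int (R := R) k2 fun v hv => (hR t htI x v (Or.inr hv)).2)]
    simp only [sub_smul]
  have he : HasDerivAt (fun s => E s x - E' s x)
      (curl3 (fun y => B t y - B' t y) x - ∫ v, (f t x v - f' t x v) • relVel v) t := by
    refine (dE.hasDerivAt.sub dE'.hasDerivAt).congr_deriv ?_
    rw [mainb_curl_sub sB sB', hjx]
    ext i
    have c1 := a1 i
    have c2 := b1 i
    rw [mainb_vec dE] at c1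
    rw [mainb_vec dE'] at c2
    simp only [PiLp.sub_apply]
    linarith
  have hb : HasDerivAt (fun s => B s x - B' s x) (-curl3 (fun y => E t y - E' t y) x) t := by
    refine (dB.hasDerivAt.sub dB'.hasDerivAt).congr_deriv ?_
    rw [mainb_curl_sub sE sE']
    ext i
    have c1 := a2 i
    have c2 := b2 i
    rw [mainb_vec dB] at c1
    rw [mainb_vec dB'] at c2
    simp only [PiLp.sub_apply, PiLp.neg_apply]
    linarith
  have hall := (hwd x).mul (he.norm_sq.add hb.norm_sq)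
  have := hall.deriv
  simp only [(hwd x).deriv]
  exact this

theorem zero_of_int {X : Type*} [TopologicalSpace X] [MeasurableSpace X] [OpensMeasurableSpace X] {μ : Measure X}
    [μ.IsOpenPosMeasure] {g : X → ℝ} (hg : Continuous g) (h0 : ∀ x, 0 ≤ g x) (hi : Integrable g μ) (h : ∫ x, g x ∂μ = 0) :
    g = 0 :=
  (hg.ae_eq_iff_eq μ continuous_const).1 ((integral_eq_zero_iff_of_nonneg h0 hi).1 h)

/-- **Uniqueness** in the class of classical solutions. -/
theorem uni (h : IsClassicalSolutionOn T f₀ E₀ B₀ f E B) (h' : IsClassicalSolutionOn T f₀ E₀ B₀ f' E' B') :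
    ∀ t ∈ Ico 0 T, f' t = f t ∧ E' t = E t ∧ B' t = B t := by
  intro T' hT'
  have := haar6
  obtain ⟨R₁, hR₁⟩ := h.2.2.2.2.2.2.2.1 T' hT'.1 hT'.2
  obtain ⟨R₂, hR₂⟩ := h'.2.2.2.2.2.2.2.1 T' hT'.1 hT'.2
  have hR : ∀ t ∈ Icc 0 T', ∀ x v : R3, (max R₁ R₂ < ‖x‖ ∨ max R₁ R₂ < ‖v‖) → f t x v = 0 ∧ f' t x v = 0 :=
    fun t ht x v hx => ⟨hR₁ t ht x v (hx.imp (le_max_left _ _).trans_lt (le_max_left _ _).trans_lt),
      hR₂ t ht x v (hx.imp (le_max_right _ _).trans_lt (le_max_right _ _).trans_lt)⟩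
  generalize max R₁ R₂ = R at hR
  have hg : ContDiffOn ℝ 1 (fun q : ℝ × R3 × R3 => (f q.1 q.2.1 q.2.2 - f' q.1 q.2.1 q.2.2) ^ 2) (Ico 0 T ×ˢ univ) :=
    (h.1.sub h'.1).pow 2
  have hK : IsCompact (Metric.closedBall (0 : R3) R ×ˢ Metric.closedBall (0 : R3) R) :=
    (isCompact_closedBall _ _).prod (isCompact_closedBall _ _)
  have hg0 : ∀ t ∈ Icc 0 T', ∀ p ∉ Metric.closedBall (0 : R3) R ×ˢ Metric.closedBall (0 : R3) R,
      (f t p.1 p.2 - f' t p.1 p.2) ^ 2 = 0 := by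
    intro t ht p hp
    have : R < ‖p.1‖ ∨ R < ‖p.2‖ := by
      by_contra hc
      push Not at hc
      exact hp ⟨by simpa using hc.1, by simpa using hc.2⟩
    rw [(hR t ht _ _ this).1, (hR t ht _ _ this).2]; simp
  have key : ∀ x : R3, (∀ p : R3 × R3, f T' p.1 p.2 = f' T' p.1 p.2) ∧ E' T' x = E T' x ∧ B' T' x = B T' x := by
    intro x₀
    obtain ⟨w, hw, h01, h1, hA, hn⟩ := exists_weight (T' + max R ‖x₀‖)
    obtain ⟨C₁, hC₁, hV⟩ := vla_step h h' hT'.2 hR
    obtain ⟨C₂, hC₂, hM⟩ := max_step h h' hT'.2 hR hw h01 hA hn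
    have hF : ContDiffOn ℝ 1 (fun q : ℝ × R3 => w q * (‖E q.1 q.2 - E' q.1 q.2‖ ^ 2 + ‖B q.1 q.2 - B' q.1 q.2‖ ^ 2))
        (Ico 0 T ×ˢ univ) :=
      hw.contDiffOn.mul (((h.2.1.sub h'.2.1).norm_sq ℝ).add ((h.2.2.1.sub h'.2.2.1).norm_sq ℝ))
    have hF0 : ∀ t ∈ Icc 0 T', ∀ x ∉ Metric.closedBall (0 : R3) (T' + max R ‖x₀‖ + 2),
        w (t, x) * (‖E t x - E' t x‖ ^ 2 + ‖B t x - B' t x‖ ^ 2) = 0 := by
      intro t ht x hx
      rw [hA t x ht.1 (by simpa using (not_le.1 (mt mem_closedBall_zero_iff.2 hx)).le), zero_mul]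
    have c1 := energy_cont volume hT'.2 hg hK hg0
    have c2 := energy_cont volume hT'.2 hF (isCompact_closedBall _ _) hF0
    have p1 : ∀ t, 0 ≤ ∫ p : R3 × R3, (f t p.1 p.2 - f' t p.1 p.2) ^ 2 := fun t => integral_nonneg fun p => sq_nonneg _
    have p2' : ∀ t x, 0 ≤ w (t, x) * (‖E t x - E' t x‖ ^ 2 + ‖B t x - B' t x‖ ^ 2) := fun t x =>
      mul_nonneg (h01 _).1 (by positivity)
    have p2 : ∀ t, 0 ≤ ∫ x, w (t, x) * (‖E t x - E' t x‖ ^ 2 + ‖B t x - B' t x‖ ^ 2) := fun t => integral_nonneg (p2' t)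
    have hz := gron (C := 1 + C₁ + C₂) (c1.add c2) (by
      simp [h.2.2.2.1, h.2.2.2.2.1, h.2.2.2.2.2.1, h'.2.2.2.1, h'.2.2.2.2.1, h'.2.2.2.2.2.1])
      (fun t => add_nonneg (p1 t) (p2 t)) (fun t ht => by
        obtain ⟨D₁, d₁, e₁⟩ := hV t ht (fun x => w (t, x)) (hw.continuous.comp (by fun_prop))
          (HasCompactSupport.intro (isCompact_closedBall (0 : R3) (T' + max R ‖x₀‖ + 2)) fun x hx =>
            hA t x ht.1.le (by simpa using (not_le.1 (mt mem_closedBall_zero_iff.2 hx)).le))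
          (fun x => (h01 _).1) (fun x hx => h1 t x (add_le_add ht.2.le (hx.trans (le_max_left _ _))))
        obtain ⟨D₂, d₂, e₂⟩ := hM t ht
        refine ⟨D₁ + D₂, d₁.add d₂, ?_⟩
        have := mul_nonneg hC₁ (p1 t)
        have := mul_nonneg hC₂ (p2 t)
        simp only [Pi.add_apply]
        nlinarith [p1 t, p2 t]) T' ⟨hT'.1, le_rfl⟩
    simp only [Pi.add_apply] at hz
    have z1 : ∫ p : R3 × R3, (f T' p.1 p.2 - f' T' p.1 p.2) ^ 2 = 0 := by linarith [p1 T', p2 T']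
    have z2 : ∫ x, w (T', x) * (‖E T' x - E' T' x‖ ^ 2 + ‖B T' x - B' T' x‖ ^ 2) = 0 := by linarith [p1 T', p2 T']
    have k1 := (slice_space hg hT').continuous
    have k2 := (slice_space hF hT').continuous
    have e1 := zero_of_int k1 (fun p => sq_nonneg _) (k1.integrable_of_hasCompactSupport
      (HasCompactSupport.intro hK (hg0 T' ⟨hT'.1, le_rfl⟩))) z1
    have e2 := zero_of_int k2 (p2' T') (k2.integrable_of_hasCompactSupport
      (HasCompactSupport.intro (isCompact_closedBall _ _) (hF0 T' ⟨hT'.1, le_rfl⟩))) z2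
    refine ⟨fun p => ?_, ?_⟩
    · have := congrFun e1 p
      simpa [sub_eq_zero] using this
    · have := congrFun e2 x₀
      simp only [h1 T' x₀ (by gcongr; exact le_max_right _ _), one_mul, Pi.zero_apply] at this
      have a1 : ‖E T' x₀ - E' T' x₀‖ ^ 2 = 0 := by nlinarith [sq_nonneg ‖E T' x₀ - E' T' x₀‖, sq_nonneg ‖B T' x₀ - B' T' x₀‖]
      have a2 : ‖B T' x₀ - B' T' x₀‖ ^ 2 = 0 := by nlinarith [sq_nonneg ‖E T' x₀ - E' T' x₀‖, sq_nonneg ‖B T' x₀ - B' T' x₀‖]
      exact ⟨(sub_eq_zero.1 (by simpa using a1)).symm, (sub_eq_zero.1 (by simpa using a2)).symm⟩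
  exact ⟨funext fun x => funext fun v => ((key x).1 (x, v)).symm, funext fun x => (key x).2.1, funext fun x => (key x).2.2⟩

end Crest.Agent.R106.U
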