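import Crest.Agent.R106.U.Vla

/-! Row 106, uniqueness: the Maxwell part at a fixed time. -/

set_option autoImplicit false

noncomputable section

namespace Crest.Agent.R106.U

open MeasureTheory Set Crest.AnalysisR.VecCalc3 Crest.AnalysisR.PDE.RVM

theorem maxa_fd (w : R3 → ℝ) (x u : R3) :
    fderiv ℝ w x u = u 0 * pderiv w 0 x + u 1 * pderiv w 1 x + u 2 * pderiv w 2 x := by
  have h : u = u 0 • EuclideanSpace.single (0 : Fin 3) (1 : ℝ) + u 1 • EuclideanSpace.single (1 : Fin 3) (1 : ℝ) +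
      u 2 • EuclideanSpace.single (2 : Fin 3) (1 : ℝ) := by
    ext i; fin_cases i <;> simp
  conv_lhs => rw [h]
  simp only [map_add, map_smul, smul_eq_mul, pderiv]

theorem maxa_cd {e : R3 → R3} (he : ContDiff ℝ 1 e) (i : Fin 3) : ContDiff ℝ 1 fun y => e y i :=
  (EuclideanSpace.proj i : R3 →L[ℝ] ℝ).contDiff.comp he

theorem maxa_cont {g : R3 → ℝ} (hg : ContDiff ℝ 1 g) (i : Fin 3) : Continuous (pderiv g i) :=
  (hg.continuous_fderiv one_ne_zero).clm_apply continuous_const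

theorem maxa_pd3 {w p q : R3 → ℝ} (hw : ContDiff ℝ 1 w) (hp : ContDiff ℝ 1 p) (hq : ContDiff ℝ 1 q) (i : Fin 3) (x : R3) :
    pderiv (fun y => w y * (p y * q y)) i x =
      pderiv w i x * (p x * q x) + w x * (pderiv p i x * q x + p x * pderiv q i x) := by
  have h1 := (hw.differentiable one_ne_zero x).hasFDerivAt
  have h2 := (hp.differentiable one_ne_zero x).hasFDerivAt
  have h3 := (hq.differentiable one_ne_zero x).hasFDerivAt
  have h := (h1.fun_mul (h2.fun_mul h3)).fderiv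
  unfold pderiv
  rw [h]
  simp
  ring

theorem maxa_int {w p q : R3 → ℝ} (hw : ContDiff ℝ 1 w) (hc : HasCompactSupport w) (hp : ContDiff ℝ 1 p)
    (hq : ContDiff ℝ 1 q) (i : Fin 3) :
    Integrable (pderiv (fun y => w y * (p y * q y)) i) ∧ ∫ x, pderiv (fun y => w y * (p y * q y)) i x = 0 := by
  have h1 : ContDiff ℝ 1 fun y => w y * (p y * q y) := hw.mul (hp.mul hq)
  have h2 : HasCompactSupport fun y => w y * (p y * q y) := hc.mul_right
  exact ⟨(maxa_cont h1 i).integrable_of_hasCompactSupport (h2.fderiv_apply ℝ _), int_fderiv_zero volume h1 h2 _⟩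

theorem maxa_curl3 {e : R3 → R3} (he : ContDiff ℝ 1 e) : Continuous (curl3 e) := by
  have h := fun i j => maxa_cont (maxa_cd he i) j
  refine (PiLp.continuous_toLp 2 _).comp (continuous_pi fun i => ?_)
  fin_cases i
  · exact (h 2 1).sub (h 1 2)
  · exact (h 0 2).sub (h 2 0)
  · exact (h 1 0).sub (h 0 1)

theorem maxa_cross3 {X : Type*} [TopologicalSpace X] {e b : X → R3} (he : Continuous e) (hb : Continuous b) :
    Continuous fun x => cross3 (e x) (b x) := by
  have h : ∀ i j, Continuous fun x => e x i * b x j := fun i j => by fun_prop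
  refine (PiLp.continuous_toLp 2 _).comp (continuous_pi fun i => ?_)
  fin_cases i
  · exact (h 1 2).sub (h 2 1)
  · exact (h 2 0).sub (h 0 2)
  · exact (h 0 1).sub (h 1 0)

/-- Poynting: `div (w e × b) = ∇w · (e × b) + w (b · curl e - e · curl b)`, `int_fderiv_zero` for the three components. -/
theorem poynting {e b : R3 → R3} (he : ContDiff ℝ 1 e) (hb : ContDiff ℝ 1 b) {w : R3 → ℝ} (hw : ContDiff ℝ 1 w)
    (hc : HasCompactSupport w) :
    ∫ x, w x * (inner ℝ (e x) (curl3 b x) - inner ℝ (b x) (curl3 e x)) = ∫ x, fderiv ℝ w x (cross3 (e x) (b x)) := by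
  have I := fun i j k => maxa_int hw hc (maxa_cd he i) (maxa_cd hb j) k
  have hA : Integrable fun x => w x * (inner ℝ (e x) (curl3 b x) - inner ℝ (b x) (curl3 e x)) :=
    (hw.continuous.mul ((he.continuous.inner (maxa_curl3 hb)).sub
      (hb.continuous.inner (maxa_curl3 he)))).integrable_of_hasCompactSupport hc.mul_right
  have key : ∀ x, fderiv ℝ w x (cross3 (e x) (b x)) =
      w x * (inner ℝ (e x) (curl3 b x) - inner ℝ (b x) (curl3 e x)) +
        (((pderiv (fun y => w y * (e y 1 * b y 2)) 0 x - pderiv (fun y => w y * (e y 2 * b y 1)) 0 x) +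
        (pderiv (fun y => w y * (e y 2 * b y 0)) 1 x - pderiv (fun y => w y * (e y 0 * b y 2)) 1 x)) +
        (pderiv (fun y => w y * (e y 0 * b y 1)) 2 x - pderiv (fun y => w y * (e y 1 * b y 0)) 2 x)) := by
    intro x
    simp only [maxa_pd3 hw (maxa_cd he _) (maxa_cd hb _), maxa_fd w x]
    simp [cross3, curl3, PiLp.inner_apply, Fin.sum_univ_three]
    ring
  have add : ∀ {F G : R3 → ℝ}, (Integrable F ∧ ∫ x, F x = 0) → (Integrable G ∧ ∫ x, G x = 0) →
      (Integrable (fun x => F x + G x) ∧ ∫ x, (F x + G x) = 0) := fun hF hG =>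
    ⟨hF.1.add hG.1, by rw [integral_add hF.1 hG.1, hF.2, hG.2, add_zero]⟩
  have sub : ∀ {F G : R3 → ℝ}, (Integrable F ∧ ∫ x, F x = 0) → (Integrable G ∧ ∫ x, G x = 0) →
      (Integrable (fun x => F x - G x) ∧ ∫ x, (F x - G x) = 0) := fun hF hG =>
    ⟨hF.1.sub hG.1, by rw [integral_sub hF.1 hG.1, hF.2, hG.2, sub_zero]⟩
  have h := add (add (sub (I 1 2 0) (I 2 1 0)) (sub (I 2 0 1) (I 0 2 1))) (sub (I 0 1 2) (I 1 0 2))
  simp only [key]
  rw [integral_add hA h.1, h.2, add_zero]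

theorem continuous_curl3 {e : R3 → R3} (he : ContDiff ℝ 1 e) : Continuous (curl3 e) := by
  exact maxa_curl3 he

theorem continuous_cross3 {X : Type*} [TopologicalSpace X] {e b : X → R3} (he : Continuous e) (hb : Continuous b) :
    Continuous fun x => cross3 (e x) (b x) := by
  exact maxa_cross3 he hb

theorem maxb_int {w g : R3 → ℝ} (hw : Continuous w) (hc : HasCompactSupport w) (hg : Continuous g) : Integrable fun x => w x * g x :=
  (hw.mul hg).integrable_of_hasCompactSupport hc.mul_right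

/-- `poynting`, `2 ‖e × b‖ ≤ ‖e‖² + ‖b‖²`, `-2 e·j ≤ ‖e‖² + ‖j‖²` -/
theorem max_le {e b j : R3 → R3} (he : ContDiff ℝ 1 e) (hb : ContDiff ℝ 1 b) (hj : Continuous j) {w wt : R3 → ℝ}
    (hw : ContDiff ℝ 1 w) (hc : HasCompactSupport w) (h0 : ∀ x, 0 ≤ w x) (hwt : Continuous wt) (hct : HasCompactSupport wt)
    (hn : ∀ x, wt x + ‖fderiv ℝ w x‖ ≤ 0) :
    ∫ x, (wt x * (‖e x‖ ^ 2 + ‖b x‖ ^ 2) +
        w x * (2 * inner ℝ (e x) (curl3 b x - j x) + 2 * inner ℝ (b x) (-curl3 e x))) ≤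
      (∫ x, w x * (‖e x‖ ^ 2 + ‖b x‖ ^ 2)) + ∫ x, w x * ‖j x‖ ^ 2 := by
  have ce := he.continuous
  have cb := hb.continuous
  have cw := hw.continuous
  have cce := continuous_curl3 he
  have ccb := continuous_curl3 hb
  have cN : Continuous fun x => ‖e x‖ ^ 2 + ‖b x‖ ^ 2 := by fun_prop
  have i1 := maxb_int hwt hct cN
  have i2 := maxb_int cw hc (ce.inner (𝕜 := ℝ) hj)
  have i3 : Integrable fun x => w x * (inner ℝ (e x) (curl3 b x) - inner ℝ (b x) (curl3 e x)) :=
    maxb_int cw hc ((ce.inner (𝕜 := ℝ) ccb).sub (cb.inner (𝕜 := ℝ) cce))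
  have i4 : Integrable fun x => fderiv ℝ w x (cross3 (e x) (b x)) := by
    refine ((hw.continuous_fderiv one_ne_zero).clm_apply (continuous_cross3 ce cb)).integrable_of_hasCompactSupport ?_
    refine (hc.fderiv (𝕜 := ℝ)).mono fun x hx h1 => hx ?_
    simp only [h1, zero_apply]
  have i5 := maxb_int cw hc cN
  have i6 := maxb_int cw hc (g := fun x => ‖j x‖ ^ 2) (by fun_prop)
  have i7 : Integrable fun x => wt x * (‖e x‖ ^ 2 + ‖b x‖ ^ 2) - 2 * (w x * inner ℝ (e x) (j x)) := i1.sub (i2.const_mul 2)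
  have e1 : ∀ x, wt x * (‖e x‖ ^ 2 + ‖b x‖ ^ 2) + w x * (2 * inner ℝ (e x) (curl3 b x - j x) + 2 * inner ℝ (b x) (-curl3 e x)) =
      (wt x * (‖e x‖ ^ 2 + ‖b x‖ ^ 2) - 2 * (w x * inner ℝ (e x) (j x))) +
        2 * (w x * (inner ℝ (e x) (curl3 b x) - inner ℝ (b x) (curl3 e x))) := fun x => by
    rw [inner_sub_right, inner_neg_right]
    ring
  simp only [e1]
  rw [integral_add i7 (i3.const_mul 2), integral_const_mul, poynting he hb hw hc, ← integral_const_mul,
    ← integral_add i7 (i4.const_mul 2), ← integral_add i5 i6]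
  refine integral_mono (i7.add (i4.const_mul 2)) (i5.add i6) fun x => ?_
  have a1 : fderiv ℝ w x (cross3 (e x) (b x)) ≤ ‖fderiv ℝ w x‖ * (‖e x‖ * ‖b x‖) :=
    (le_abs_self _).trans (((fderiv ℝ w x).le_opNorm _).trans (mul_le_mul_of_nonneg_left (norm_cross3_le _ _) (norm_nonneg _)))
  have a2 : -inner ℝ (e x) (j x) ≤ ‖e x‖ * ‖j x‖ := (neg_le_abs _).trans (abs_real_inner_le_norm _ _)
  have a3 := mul_le_mul_of_nonneg_left a2 (h0 x)
  have a4 := mul_nonneg (h0 x) (sq_nonneg (‖e x‖ - ‖j x‖))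
  have a5 := mul_nonneg (norm_nonneg (fderiv ℝ w x)) (sq_nonneg (‖e x‖ - ‖b x‖))
  have a6 := mul_nonpos_of_nonpos_of_nonneg (hn x) (show 0 ≤ ‖e x‖ ^ 2 + ‖b x‖ ^ 2 by positivity)
  have a7 := mul_nonneg (h0 x) (sq_nonneg ‖b x‖)
  simp only
  nlinarith

end Crest.Agent.R106.U
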